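import Vale.Agent.P176.Engine

namespace Vale.Agent.Results.P176.Findim

open CategoryTheory

/-- The little finitistic dimension: the supremum of the projective dimensions of the finitely
generated left modules of finite projective dimension. -/
noncomputable def findim (A : Type) [Ring A] : WithBot ℕ∞ :=
  ⨆ (M : ModuleCat.{0} A) (_ : Module.Finite A M) (_ : projectiveDimension M ≠ ⊤),
    projectiveDimension M

theorem result :
    ∃ (k : Type) (_ : Field k) (A : Type) (_ : Ring A) (_ : Algebra k A),
      FiniteDimensional k A ∧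
      (∀ n : ℕ, ∃ M : ModuleCat.{0} A, Module.Finite A M ∧ projectiveDimension M ≠ ⊤ ∧
        (n : WithBot ℕ∞) ≤ projectiveDimension M) ∧
      findim A = ⊤ := by
  let inst : Algebra (ZMod 2) Vale.Agent.P176.A :=
    (Vale.Agent.P176.AA.β.comp (algebraMap (ZMod 2) Vale.Agent.P176.B)).toAlgebra' (by
      intro c x
      have : c = 0 ∨ c = 1 := by revert c; decide
      rcases this with rfl | rfl <;> simp)
  have key : ∀ n : ℕ, ∃ M : ModuleCat.{0} Vale.Agent.P176.A,
      Module.Finite Vale.Agent.P176.A M ∧ projectiveDimension M ≠ ⊤ ∧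
        (n : WithBot ℕ∞) ≤ projectiveDimension M := by
    intro n
    obtain ⟨M, _, _, _, ⟨m, h1⟩, h2⟩ := Vale.Agent.P176.final n
    refine ⟨ModuleCat.of _ M, Module.Finite.of_finite, ?_, ?_⟩
    · rw [projectiveDimension_ne_top_iff]
      exact ⟨m, h1.mono (Nat.le_succ m)⟩
    · rw [projectiveDimension_ge_iff]
      exact h2
  refine ⟨ZMod 2, inferInstance, Vale.Agent.P176.A, inferInstance, inst,
    Module.Finite.of_finite, key, ?_⟩
  have h : ∀ n : ℕ, (n : WithBot ℕ∞) ≤ findim Vale.Agent.P176.A := by
    intro n
    obtain ⟨M, h1, h2, h3⟩ := key n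
    exact h3.trans (le_iSup_of_le M (le_iSup_of_le h1 (le_iSup_of_le h2 le_rfl)))
  generalize findim Vale.Agent.P176.A = d at h
  induction d with
  | bot => exact absurd (h 0) (by simp)
  | coe d =>
    induction d with
    | top => rfl
    | coe d =>
      have := h (d + 1)
      rw [← WithBot.coe_natCast, WithBot.coe_le_coe, Nat.cast_le] at this
      omega

end Vale.Agent.Results.P176.Findim
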